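import Mathlib

/-! Basic notions for the finite lattice representation problem. -/

namespace Vale.Agent.P183

/-- A finite algebra: a nonempty finite carrier together with a finite list of total
operations of finite arity. -/
structure FinAlg where
  carrier : Type
  finite : Finite carrier
  nonempty : Nonempty carrier
  numOps : ℕ
  arity : Fin numOps → ℕ
  op : (i : Fin numOps) → (Fin (arity i) → carrier) → carrier

/-- An equivalence relation `r` on the carrier is a congruence if it is compatible with
every operation. -/
def FinAlg.IsCongruence (A : FinAlg) (r : Setoid A.carrier) : Prop :=
  ∀ (i : Fin A.numOps) (x y : Fin (A.arity i) → A.carrier),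
    (∀ j, r.r (x j) (y j)) → r.r (A.op i x) (A.op i y)

/-- A partially ordered set `L` is representable if it is order isomorphic to the set of all
congruences of some finite algebra, ordered by inclusion. -/
def Representable (L : Type) [PartialOrder L] : Prop :=
  ∃ A : FinAlg, Nonempty ({r : Setoid A.carrier // A.IsCongruence r} ≃o L)

end Vale.Agent.P183
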