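import Mathlib
import Vale.Agent.P183.Defs
import Vale.Agent.P183.Data

namespace Vale.Agent.P183

def N : Nat := 1140

def look (T x : Nat) : Nat := (T >>> (11 * x)) % 2048

def gen (i x : Nat) : Nat :=
  (match i with
   | 0 => look T0 x
   | 1 => look T1 x
   | 2 => look T2 x
   | 3 => look T3 x
   | _ => look T4 x) % N

theorem gen_lt (i x : Nat) : gen i x < N := Nat.mod_lt _ (by decide)

def appC : Nat → Nat → Nat → Nat
  | 0, _, x => x
  | k+1, w, x => if w = 0 then x else appC k (w / 8) (gen (w % 8 - 1) x)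

def memb (a : Nat) : List Nat → Bool
  | [] => false
  | b :: l => if a = b then true else memb a l

theorem memb_iff {a : Nat} {l : List Nat} : memb a l = true ↔ a ∈ l := by
  induction l with
  | nil => simp [memb]
  | cons b l ih =>
    by_cases h : a = b
    · simp [memb, h]
    · simp [memb, h, ih]

def runD : List Nat → List (Nat × Nat) → List Nat
  | D, [] => D
  | D, s :: r =>
    if memb s.2 D = true ∧ memb (appC 32 s.1 0) D = true then runD (appC 32 s.1 s.2 :: D) r else []

def allBelow (p : Nat → Bool) : Nat → Bool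
  | 0 => true
  | k+1 => if p k = true then allBelow p k else false

theorem allBelow_spec {p : Nat → Bool} : ∀ {n : Nat}, allBelow p n = true → ∀ x, x < n → p x = true
  | 0, _, x, hx => absurd hx (Nat.not_lt_zero x)
  | k+1, h, x, hx => by
    unfold allBelow at h
    by_cases hk : p k = true
    · rw [if_pos hk] at h
      rcases Nat.lt_succ_iff_lt_or_eq.mp hx with h1 | h1
      · exact allBelow_spec h x h1
      · rw [h1]; exact hk
    · rw [if_neg hk] at h
      exact absurd h (by decide)

/-- operations on `Fin N` -/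
def opF (i : Nat) (x : Fin N) : Fin N := ⟨gen i x.val, gen_lt i x.val⟩

def alg : FinAlg where
  carrier := Fin N
  finite := inferInstance
  nonempty := ⟨⟨0, by decide⟩⟩
  numOps := 5
  arity := fun _ => 1
  op := fun i x => opF i.val (x 0)

theorem opF_ge (i : Nat) : opF (i + 4) = opF 4 := by
  funext x
  rfl

theorem cong_opF {r : Setoid (Fin N)} (hr : alg.IsCongruence r) (i : Nat) (a b : Fin N)
    (h : r.r a b) : r.r (opF i a) (opF i b) := by
  have key : ∀ j : Fin 5, r.r (opF j.val a) (opF j.val b) := by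
    intro j
    exact hr j (fun _ => a) (fun _ => b) (fun _ => h)
  rcases i with _ | _ | _ | _ | i
  · exact key 0
  · exact key 1
  · exact key 2
  · exact key 3
  · have := key 4
    rw [show i + 1 + 1 + 1 + 1 = i + 4 from rfl, opF_ge]
    exact this

/-- the relation transported to natural numbers -/
def Rel (r : Setoid (Fin N)) (a b : Nat) : Prop :=
  ∃ (ha : a < N) (hb : b < N), r.r ⟨a, ha⟩ ⟨b, hb⟩

theorem Rel.refl (r : Setoid (Fin N)) {a : Nat} (ha : a < N) : Rel r a a :=
  ⟨ha, ha, r.iseqv.refl _⟩

theorem Rel.symm {r : Setoid (Fin N)} {a b : Nat} (h : Rel r a b) : Rel r b a := by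
  obtain ⟨ha, hb, h⟩ := h
  exact ⟨hb, ha, r.iseqv.symm h⟩

theorem Rel.trans {r : Setoid (Fin N)} {a b c : Nat} (h : Rel r a b) (h' : Rel r b c) :
    Rel r a c := by
  obtain ⟨ha, hb, h⟩ := h
  obtain ⟨_, hc, h'⟩ := h'
  exact ⟨ha, hc, r.iseqv.trans h h'⟩

theorem Rel.gen {r : Setoid (Fin N)} (hr : alg.IsCongruence r) {a b : Nat} (i : Nat)
    (h : Rel r a b) : Rel r (gen i a) (gen i b) := by
  obtain ⟨ha, hb, h⟩ := h
  exact ⟨gen_lt _ _, gen_lt _ _, cong_opF hr i _ _ h⟩

theorem Rel.app {r : Setoid (Fin N)} (hr : alg.IsCongruence r) :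
    ∀ (k w : Nat) {a b : Nat}, Rel r a b → Rel r (appC k w a) (appC k w b)
  | 0, _, _, _, h => h
  | k+1, w, a, b, h => by
    unfold appC
    by_cases hw : w = 0
    · simp only [hw, if_true]; exact h
    · simp only [hw, if_false]
      exact Rel.app hr k _ (Rel.gen hr _ h)

theorem runD_sound {r : Setoid (Fin N)} (hr : alg.IsCongruence r) :
    ∀ (steps : List (Nat × Nat)) (D : List Nat), (∀ a ∈ D, Rel r 0 a) →
      ∀ a ∈ runD D steps, Rel r 0 a
  | [], D, hD => hD
  | s :: rest, D, hD => by
    unfold runD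
    by_cases hc : memb s.2 D = true ∧ memb (appC 32 s.1 0) D = true
    · rw [if_pos hc]
      apply runD_sound hr rest
      intro a ha
      rcases List.mem_cons.mp ha with h1 | h1
      · rw [h1]
        have hv := hD _ (memb_iff.mp hc.1)
        have hw := hD _ (memb_iff.mp hc.2)
        exact hw.trans (Rel.app hr 32 s.1 hv)
      · exact hD a h1
    · rw [if_neg hc]
      intro a ha
      exact absurd ha (List.not_mem_nil)

end Vale.Agent.P183
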