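import Mathlib
import Vale.Agent.P183.Check

namespace Vale.Agent.P183

/-! ### kernel-checked facts about the tables -/

def chkInv : Bool := allBelow (fun x =>
  gen 3 (gen 0 x) == x && gen 0 (gen 3 x) == x && gen 1 (gen 1 x) == x &&
  gen 4 (gen 2 x) == x && gen 2 (gen 4 x) == x) N

theorem chkInv_ok : chkInv = true := by decide +kernel

def chkTree : Bool := allBelow (fun a =>
  a == 0 || (decide (look PAR a < a) && decide (look PG a ≤ 2) &&
    gen (look PG a) (look PAR a) == a)) N

theorem chkTree_ok : chkTree = true := by decide +kernel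

def prl (m : Nat) : List Nat :=
  (if m.testBit 0 then [523] else []) ++ (if m.testBit 1 then [1037] else []) ++
  (if m.testBit 2 then [386] else []) ++ (if m.testBit 3 then [557] else [])

def chk1 (c : Nat) (e : Nat × List (Nat × Nat) × List (Nat × Nat)) : Bool :=
  if e.1 = 15 then memb 1 (runD [c, 0] e.2.1)
  else (prl e.1).all (fun q => memb q (runD [c, 0] e.2.1)) &&
    memb c (runD (prl e.1 ++ [0]) e.2.2)

def chkAll : Nat → List (Nat × List (Nat × Nat) × List (Nat × Nat)) → Bool
  | c, [] => c == N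
  | c, e :: r => if chk1 c e = true then chkAll (c+1) r else false

theorem chkAll_ok : chkAll 1 certs = true := by decide +kernel

theorem bad02_ok : memb 1 (runD [523, 386, 0] bad02) = true := by decide +kernel
theorem bad03_ok : memb 1 (runD [523, 557, 0] bad03) = true := by decide +kernel
theorem bad12_ok : memb 1 (runD [1037, 386, 0] bad12) = true := by decide +kernel
theorem bad13_ok : memb 1 (runD [1037, 557, 0] bad13) = true := by decide +kernel
theorem bad23_ok : memb 1 (runD [386, 557, 0] bad23) = true := by decide +kernel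

def chkLB (LB : Nat) : Bool := allBelow (fun x =>
  look LB (gen 0 x) == look LB (gen 0 (look LB x)) &&
  look LB (gen 1 x) == look LB (gen 1 (look LB x)) &&
  look LB (gen 2 x) == look LB (gen 2 (look LB x)) &&
  look LB (gen 3 x) == look LB (gen 3 (look LB x)) &&
  look LB (gen 4 x) == look LB (gen 4 (look LB x))) N

theorem chkLB1_ok : chkLB LB1 = true := by decide +kernel
theorem chkLB2_ok : chkLB LB2 = true := by decide +kernel
theorem chkLB3_ok : chkLB LB3 = true := by decide +kernel
theorem chkLB4_ok : chkLB LB4 = true := by decide +kernel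
theorem chkLB5_ok : chkLB LB5 = true := by decide +kernel

/-! ### consequences -/

def invL (i : Nat) : Nat := match i with
  | 0 => 3
  | 1 => 1
  | _ => 4

theorem inv_spec (x : Nat) (hx : x < N) (i : Nat) (hi : i ≤ 2) :
    gen (invL i) (gen i x) = x ∧ gen i (gen (invL i) x) = x := by
  have h := allBelow_spec chkInv_ok x hx
  simp only [Bool.and_eq_true, beq_iff_eq] at h
  obtain ⟨⟨⟨⟨h1, h2⟩, h3⟩, h4⟩, h5⟩ := h
  rcases i with _ | _ | _ | i
  · exact ⟨h1, h2⟩
  · exact ⟨h3, h3⟩
  · exact ⟨h4, h5⟩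
  · omega

theorem tree_spec (a : Nat) (h0 : 0 < a) (ha : a < N) :
    look PAR a < a ∧ look PG a ≤ 2 ∧ gen (look PG a) (look PAR a) = a := by
  have h := allBelow_spec chkTree_ok a ha
  simp only [Bool.or_eq_true, Bool.and_eq_true, beq_iff_eq, decide_eq_true_eq] at h
  rcases h with h | h
  · omega
  · exact ⟨h.1.1, h.1.2, h.2⟩

theorem all_of_gen {r : Setoid (Fin N)} (hr : alg.IsCongruence r)
    (h : ∀ i, i ≤ 2 → Rel r 0 (gen i 0)) : ∀ a, a < N → Rel r 0 a := by
  intro a
  induction a using Nat.strong_induction_on with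
  | _ a ih =>
    intro ha
    by_cases h0 : a = 0
    · subst h0; exact Rel.refl r ha
    · obtain ⟨h1, h2, h3⟩ := tree_spec a (Nat.pos_of_ne_zero h0) ha
      have hb := ih _ h1 (lt_trans h1 ha)
      have := Rel.gen hr (look PG a) hb
      rw [h3] at this
      exact (h _ h2).trans this

theorem gen00 : gen 0 0 = 0 := by decide +kernel
theorem gen10 : gen 1 0 = 0 := by decide +kernel
theorem gen20 : gen 2 0 = 1 := by decide +kernel

theorem all_of_one {r : Setoid (Fin N)} (hr : alg.IsCongruence r) (h : Rel r 0 1) :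
    ∀ a, a < N → Rel r 0 a := by
  apply all_of_gen hr
  intro i hi
  rcases i with _ | _ | _ | i
  · rw [gen00]; exact Rel.refl r (by decide)
  · rw [gen10]; exact Rel.refl r (by decide)
  · rw [gen20]; exact h
  · omega

theorem rel_of_base {r r' : Setoid (Fin N)} (hr : alg.IsCongruence r)
    (hr' : alg.IsCongruence r') (h : ∀ c, Rel r 0 c → Rel r' 0 c) :
    ∀ a, a < N → ∀ b, Rel r a b → Rel r' a b := by
  intro a
  induction a using Nat.strong_induction_on with
  | _ a ih =>
    intro ha b hab
    by_cases h0 : a = 0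
    · subst h0; exact h b hab
    · obtain ⟨h1, h2, h3⟩ := tree_spec a (Nat.pos_of_ne_zero h0) ha
      have hb : b < N := hab.2.1
      have ha0 : look PAR a < N := lt_trans h1 ha
      have e1 := (inv_spec (look PAR a) ha0 _ h2).1
      have e2 := (inv_spec b hb _ h2).2
      have hab' : Rel r (gen (look PG a) (look PAR a)) b := by rw [h3]; exact hab
      have s1 := Rel.gen hr (invL (look PG a)) hab'
      rw [e1] at s1
      have s2 := ih _ h1 ha0 _ s1
      have s3 := Rel.gen hr' (look PG a) s2
      rw [h3, e2] at s3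
      exact s3

theorem le_of_base {r r' : Setoid (Fin N)} (hr : alg.IsCongruence r)
    (hr' : alg.IsCongruence r') (h : ∀ c, Rel r 0 c → Rel r' 0 c) : r ≤ r' := by
  intro x y hxy
  have := rel_of_base hr hr' h x.val x.isLt y.val ⟨x.isLt, y.isLt, hxy⟩
  obtain ⟨_, _, h3⟩ := this
  exact h3

theorem chkAll_spec : ∀ (l : List (Nat × List (Nat × Nat) × List (Nat × Nat))) (c0 : Nat),
    chkAll c0 l = true → ∀ c, c0 ≤ c → c < N → ∃ e, chk1 c e = true
  | [], c0, h, c, h1, h2 => by
    simp only [chkAll, beq_iff_eq] at h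
    omega
  | e :: l, c0, h, c, h1, h2 => by
    unfold chkAll at h
    by_cases he : chk1 c0 e = true
    · rw [if_pos he] at h
      rcases Nat.eq_or_lt_of_le h1 with h3 | h3
      · exact ⟨e, h3 ▸ he⟩
      · exact chkAll_spec l (c0+1) h c h3 h2
    · rw [if_neg he] at h
      exact absurd h (by decide)

theorem prl_sub {m q : Nat} (h : q ∈ prl m) : q = 523 ∨ q = 1037 ∨ q = 386 ∨ q = 557 := by
  unfold prl at h
  simp only [List.mem_append] at h
  rcases h with ((h | h) | h) | h
  · split_ifs at h <;> simp_all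
  · split_ifs at h <;> simp_all
  · split_ifs at h <;> simp_all
  · split_ifs at h <;> simp_all

theorem prl_lt {m q : Nat} (h : q ∈ prl m) : q < N := by
  rcases prl_sub h with h | h | h | h <;> subst h <;> decide

theorem base_list {r : Setoid (Fin N)} {l : List Nat} (h : ∀ q ∈ l, Rel r 0 q) :
    ∀ a ∈ l ++ [0], Rel r 0 a := by
  intro a ha
  rcases List.mem_append.mp ha with h1 | h1
  · exact h a h1
  · rw [List.mem_singleton.mp h1]; exact Rel.refl r (by decide)

theorem bad_gen {r : Setoid (Fin N)} (hr : alg.IsCongruence r) {p q : Nat}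
    {s : List (Nat × Nat)} (hs : memb 1 (runD [p, q, 0] s) = true)
    (hp : Rel r 0 p) (hq : Rel r 0 q) : Rel r 0 1 := by
  apply runD_sound hr s [p, q, 0] _ 1 (memb_iff.mp hs)
  intro a ha
  simp only [List.mem_cons, List.not_mem_nil, or_false] at ha
  rcases ha with h | h | h
  · rw [h]; exact hp
  · rw [h]; exact hq
  · rw [h]; exact Rel.refl r (by decide)

theorem lemA (c : Nat) (hc0 : 0 < c) (hc : c < N) :
    ∃ m, ∀ r : Setoid (Fin N), alg.IsCongruence r → (Rel r 0 c ↔ ∀ q ∈ prl m, Rel r 0 q) := by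
  obtain ⟨e, he⟩ := chkAll_spec certs 1 chkAll_ok c hc0 hc
  refine ⟨e.1, fun r hr => ?_⟩
  have start : Rel r 0 c → ∀ a ∈ [c, 0], Rel r 0 a := by
    intro h a ha
    simp only [List.mem_cons, List.not_mem_nil, or_false] at ha
    rcases ha with h1 | h1
    · rw [h1]; exact h
    · rw [h1]; exact Rel.refl r (by decide)
  unfold chk1 at he
  by_cases h15 : e.1 = 15
  · rw [if_pos h15] at he
    constructor
    · intro h q hq
      have h1 : Rel r 0 1 := runD_sound hr _ _ (start h) 1 (memb_iff.mp he)
      exact all_of_one hr h1 q (prl_lt hq)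
    · intro h
      rw [h15] at h
      have h1 : Rel r 0 1 := bad_gen hr bad02_ok (h 523 (by decide)) (h 386 (by decide))
      exact all_of_one hr h1 c hc
  · rw [if_neg h15] at he
    simp only [Bool.and_eq_true, List.all_eq_true] at he
    constructor
    · intro h q hq
      exact runD_sound hr _ _ (start h) q (memb_iff.mp (he.1 q hq))
    · intro h
      exact runD_sound hr _ _ (base_list h) c (memb_iff.mp he.2)

/-! ### explicit congruences -/

def kerS (LB : Nat) : Setoid (Fin N) := Setoid.ker (fun x : Fin N => look LB x.val)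

theorem isCong_of_unary {r : Setoid (Fin N)}
    (h : ∀ (i : Fin 5) (a b : Fin N), r.r a b → r.r (opF i.val a) (opF i.val b)) :
    alg.IsCongruence r := by
  intro i x y hxy
  exact h i (x (0 : Fin 1)) (y (0 : Fin 1)) (hxy (0 : Fin 1))

theorem kerS_cong (LB : Nat) (h : chkLB LB = true) : alg.IsCongruence (kerS LB) := by
  apply isCong_of_unary
  intro i a b hab
  have h0 : look LB a.val = look LB b.val := hab
  have hx := allBelow_spec h a.val a.isLt
  have hy := allBelow_spec h b.val b.isLt
  simp only [Bool.and_eq_true, beq_iff_eq] at hx hy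
  obtain ⟨⟨⟨⟨x0, x1⟩, x2⟩, x3⟩, x4⟩ := hx
  obtain ⟨⟨⟨⟨y0, y1⟩, y2⟩, y3⟩, y4⟩ := hy
  show look LB (gen i.val a.val) = look LB (gen i.val b.val)
  fin_cases i
  · show look LB (gen 0 a.val) = look LB (gen 0 b.val)
    rw [x0, y0, h0]
  · show look LB (gen 1 a.val) = look LB (gen 1 b.val)
    rw [x1, y1, h0]
  · show look LB (gen 2 a.val) = look LB (gen 2 b.val)
    rw [x2, y2, h0]
  · show look LB (gen 3 a.val) = look LB (gen 3 b.val)
    rw [x3, y3, h0]
  · show look LB (gen 4 a.val) = look LB (gen 4 b.val)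
    rw [x4, y4, h0]

theorem rel_kerS (LB a b : Nat) :
    Rel (kerS LB) a b ↔ (a < N ∧ b < N ∧ look LB a = look LB b) := by
  constructor
  · rintro ⟨ha, hb, h⟩
    exact ⟨ha, hb, h⟩
  · rintro ⟨ha, hb, h⟩
    exact ⟨ha, hb, h⟩

theorem bot_cong : alg.IsCongruence ⊥ := by
  apply isCong_of_unary
  intro i a b hab
  have h0 : a = b := hab
  show opF i.val a = opF i.val b
  rw [h0]

theorem top_cong : alg.IsCongruence ⊤ := by
  apply isCong_of_unary
  intro i a b _
  trivial

theorem rel_bot (a b : Nat) : Rel ⊥ a b ↔ (a < N ∧ b < N ∧ a = b) := by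
  constructor
  · rintro ⟨ha, hb, h⟩
    exact ⟨ha, hb, congrArg Fin.val h⟩
  · rintro ⟨ha, hb, h⟩
    exact ⟨ha, hb, Fin.ext h⟩

theorem rel_top (a b : Nat) : Rel ⊤ a b ↔ (a < N ∧ b < N) := by
  constructor
  · rintro ⟨ha, hb, _⟩
    exact ⟨ha, hb⟩
  · rintro ⟨ha, hb⟩
    exact ⟨ha, hb, trivial⟩

end Vale.Agent.P183
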